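import Vale.Agent.H44.ThorpDefs

namespace Vale.Agent.H44

open Finset

theorem thorpPos_lt (m : ℕ) (c : Fin m → Bool) (x : Fin (2 * m)) : thorpPos m c x < 2 * m := by
  unfold thorpPos
  have hx := x.isLt
  split_ifs <;> omega

theorem thorpPos_div_two (m : ℕ) (c : Fin m → Bool) (x : Fin (2 * m)) :
    thorpPos m c x / 2 = x.val % m := by
  unfold thorpPos
  have hx := x.isLt
  by_cases h1 : x.val < m
  · rw [dif_pos h1, Nat.mod_eq_of_lt h1]
    split_ifs <;> omega
  · rw [dif_neg h1]
    have h2 : x.val % m = x.val - m := by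
      rw [Nat.mod_eq_sub_mod (by omega), Nat.mod_eq_of_lt (by omega)]
    rw [h2]
    split_ifs <;> omega

theorem thorpPos_injective (m : ℕ) (c : Fin m → Bool) : Function.Injective (thorpPos m c) := by
  intro x y hxy
  have hx := x.isLt
  have hy := y.isLt
  apply Fin.ext
  unfold thorpPos at hxy
  by_cases h1 : x.val < m <;> by_cases h2 : y.val < m
  · rw [dif_pos h1, dif_pos h2] at hxy
    split_ifs at hxy <;> omega
  · rw [dif_pos h1, dif_neg h2] at hxy
    have hxm : x.val = y.val - m := by split_ifs at hxy <;> omega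
    have hc : c ⟨x.val, h1⟩ = c ⟨y.val - m, by omega⟩ := by
      congr 1
      exact Fin.ext hxm
    rw [hc] at hxy
    split_ifs at hxy <;> omega
  · rw [dif_neg h1, dif_pos h2] at hxy
    have hxm : y.val = x.val - m := by split_ifs at hxy <;> omega
    have hc : c ⟨y.val, h2⟩ = c ⟨x.val - m, by omega⟩ := by
      congr 1
      exact Fin.ext hxm
    rw [hc] at hxy
    split_ifs at hxy <;> omega
  · rw [dif_neg h1, dif_neg h2] at hxy
    have hxm : x.val - m = y.val - m := by split_ifs at hxy <;> omega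
    omega

/-- The permutation of positions effected by one Thorp shuffle with coins `c`. -/
noncomputable def thorpPerm (m : ℕ) (c : Fin m → Bool) : Equiv.Perm (Fin (2 * m)) :=
  Equiv.ofBijective (fun x => ⟨thorpPos m c x, thorpPos_lt m c x⟩)
    (Finite.injective_iff_bijective.mp
      (fun _ _ h => thorpPos_injective m c (congrArg Fin.val h)))

theorem thorpPerm_val (m : ℕ) (c : Fin m → Bool) (x : Fin (2 * m)) :
    (thorpPerm m c x).val = thorpPos m c x := rfl

theorem thorpStep_eq (m : ℕ) (g : Equiv.Perm (Fin (2 * m))) :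
    thorpStep m g = (∑ c : Fin m → Bool, if thorpPerm m c = g then (1 : ℝ) else 0) / 2 ^ m := by
  unfold thorpStep
  congr 1
  rw [Finset.card_filter]
  push_cast
  apply Finset.sum_congr rfl
  intro c _
  have h : (∀ x : Fin (2 * m), (g x).val = thorpPos m c x) ↔ thorpPerm m c = g := by
    constructor
    · intro h
      ext x
      rw [thorpPerm_val]
      exact (h x).symm
    · intro h x
      rw [← h]
      rfl
  simp only [h]

theorem thorpStep_nonneg (m : ℕ) (g : Equiv.Perm (Fin (2 * m))) : 0 ≤ thorpStep m g := by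
  unfold thorpStep
  positivity

theorem sum_thorpStep (m : ℕ) : ∑ g : Equiv.Perm (Fin (2 * m)), thorpStep m g = 1 := by
  simp only [thorpStep_eq]
  rw [← Finset.sum_div, Finset.sum_comm]
  simp

theorem thorpStep_ne_zero {m : ℕ} {g : Equiv.Perm (Fin (2 * m))} (h : thorpStep m g ≠ 0) :
    ∃ c : Fin m → Bool, thorpPerm m c = g := by
  rw [thorpStep_eq] at h
  have h1 : (∑ c : Fin m → Bool, if thorpPerm m c = g then (1 : ℝ) else 0) ≠ 0 := by
    intro h0
    rw [h0] at h
    simp at h
  obtain ⟨c, _, hc⟩ := Finset.exists_ne_zero_of_sum_ne_zero h1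
  refine ⟨c, ?_⟩
  by_contra hne
  simp [hne] at hc

theorem sum_groupConv {G : Type} [Group G] [Fintype G] (μ ν : G → ℝ) :
    ∑ g : G, groupConv μ ν g = (∑ g : G, μ g) * (∑ g : G, ν g) := by
  unfold groupConv
  rw [Finset.sum_comm, Finset.sum_mul]
  apply Finset.sum_congr rfl
  intro h _
  rw [← Finset.mul_sum]
  congr 1
  exact Fintype.sum_equiv (Equiv.mulRight h⁻¹) _ _ (fun g => rfl)

theorem thorpLaw_succ (m t : ℕ) :
    thorpLaw m (t + 1) = groupConv (thorpLaw m t) (thorpStep m) := rfl

theorem sum_thorpLaw (m t : ℕ) : ∑ g : Equiv.Perm (Fin (2 * m)), thorpLaw m t g = 1 := by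
  induction t with
  | zero => simp [thorpLaw]
  | succ t ih => rw [thorpLaw_succ, sum_groupConv, ih, sum_thorpStep]; norm_num

/-- Product of Thorp permutations, the head of the list being the LAST shuffle performed. -/
noncomputable def thorpProd (m : ℕ) : List (Fin m → Bool) → Equiv.Perm (Fin (2 * m))
  | [] => 1
  | c :: cs => thorpPerm m c * thorpProd m cs

theorem thorpProd_append (m : ℕ) (L L' : List (Fin m → Bool)) :
    thorpProd m (L ++ L') = thorpProd m L * thorpProd m L' := by
  induction L with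
  | nil => simp [thorpProd]
  | cons c cs ih => simp [thorpProd, ih, mul_assoc]

theorem thorpLaw_support (m t : ℕ) (g : Equiv.Perm (Fin (2 * m))) (h : thorpLaw m t g ≠ 0) :
    ∃ L : List (Fin m → Bool), L.length = t ∧ g = thorpProd m L := by
  induction t generalizing g with
  | zero =>
    simp only [thorpLaw] at h
    by_cases hg : g = 1
    · exact ⟨[], rfl, hg⟩
    · simp [hg] at h
  | succ t ih =>
    rw [thorpLaw_succ] at h
    unfold groupConv at h
    obtain ⟨h', _, hh⟩ := Finset.exists_ne_zero_of_sum_ne_zero h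
    have h1 : thorpLaw m t h' ≠ 0 := left_ne_zero_of_mul hh
    have h2 : thorpStep m (g * h'⁻¹) ≠ 0 := right_ne_zero_of_mul hh
    obtain ⟨L, hL, hL2⟩ := ih h' h1
    obtain ⟨c, hc⟩ := thorpStep_ne_zero h2
    refine ⟨c :: L, by simp [hL], ?_⟩
    simp only [thorpProd]
    rw [hc, ← hL2]
    simp

end Vale.Agent.H44
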