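import Mathlib

namespace Vale.Agent.H44

/-- One Thorp shuffle of a deck of `2 * m` cards, positions numbered `0, ..., 2 * m - 1`
(position `0` is the top).  For `i < m` the cards in positions `i` (top half) and `m + i`
(bottom half) are placed in positions `2 * i` and `2 * i + 1`; the coin `c i` decides the order:
the card from the top half goes to `2 * i` when `c i = false` and to `2 * i + 1` when
`c i = true`.  `thorpPos m c x` is the new position of the card that was in position `x`. -/
def thorpPos (m : ℕ) (c : Fin m → Bool) (x : Fin (2 * m)) : ℕ :=
  if h : x.val < m then 2 * x.val + (if c ⟨x.val, h⟩ then 1 else 0)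
  else 2 * (x.val - m) + (if c ⟨x.val - m, by omega⟩ then 0 else 1)

/-- The law `q` of one Thorp shuffle on the symmetric group of the `2 * m` positions:
`thorpStep m g` is the probability, over `m` independent fair coins, that the shuffle moves
the card in position `x` to position `g x` for every `x`. -/
noncomputable def thorpStep (m : ℕ) (g : Equiv.Perm (Fin (2 * m))) : ℝ :=
  ((Finset.univ.filter
      (fun c : Fin m → Bool => ∀ x : Fin (2 * m), (g x).val = thorpPos m c x)).card : ℝ) / 2 ^ m

/-- Convolution of two real functions on a finite group: if `a` has law `μ` and `b` has law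
`ν` independently, then `groupConv μ ν` is the law of `b * a`. -/
noncomputable def groupConv {G : Type} [Group G] [Fintype G] (μ ν : G → ℝ) (g : G) : ℝ :=
  ∑ h : G, μ h * ν (g * h⁻¹)

/-- The `t`-fold convolution power of the Thorp law: the law of the permutation of positions
produced by `t` independent Thorp shuffles of `2 * m` cards. -/
noncomputable def thorpLaw (m : ℕ) : ℕ → Equiv.Perm (Fin (2 * m)) → ℝ
  | 0 => fun g => if g = 1 then 1 else 0
  | t + 1 => groupConv (thorpLaw m t) (thorpStep m)

/-- The uniform law on a finite type. -/
noncomputable def unifLaw (G : Type) [Fintype G] (_ : G) : ℝ := 1 / (Fintype.card G : ℝ)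

/-- Total variation distance between two real functions on a finite type. -/
noncomputable def tvDist {G : Type} [Fintype G] (μ ν : G → ℝ) : ℝ :=
  (1 / 2) * ∑ g : G, |μ g - ν g|

end Vale.Agent.H44
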