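import Vale.Agent.H44.ThorpBasic

namespace Vale.Agent.H44

open Finset

theorem bit_mod_pow (k s y : ℕ) (hs : s < k) : (y % 2 ^ k / 2 ^ s) % 2 = (y / 2 ^ s) % 2 := by
  have hk : 2 ^ k = 2 ^ s * 2 ^ (k - s) := by
    rw [← pow_add]
    congr 1
    omega
  rw [hk, Nat.mod_mul_right_div_self]
  have hdvd : 2 ∣ 2 ^ (k - s) := by
    apply dvd_pow_self
    omega
  rw [Nat.mod_mod_of_dvd _ hdvd]

theorem thorpPos_div_pow (m : ℕ) (c : Fin m → Bool) (x : Fin (2 * m)) (s : ℕ) :
    thorpPos m c x / 2 ^ (s + 1) = x.val % m / 2 ^ s := by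
  rw [pow_succ', ← Nat.div_div_eq_div_mul, thorpPos_div_two]

/-- After `s ≤ k` shuffles of `2 * 2 ^ k` cards, bit `s` of the position of a card equals the
parity of its original position. -/
theorem thorpProd_bit (k : ℕ) (L : List (Fin (2 ^ k) → Bool)) (hL : L.length ≤ k)
    (x : Fin (2 * 2 ^ k)) :
    ((thorpProd (2 ^ k) L x).val / 2 ^ L.length) % 2 = x.val % 2 := by
  induction L with
  | nil => simp [thorpProd]
  | cons c cs ih =>
    have hlen : cs.length < k := by
      simp only [List.length_cons] at hL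
      omega
    have ih' := ih (le_of_lt hlen)
    simp only [thorpProd, Equiv.Perm.coe_mul, Function.comp_apply, List.length_cons]
    rw [thorpPerm_val, thorpPos_div_pow, bit_mod_pow k _ _ hlen]
    exact ih'

/-- The number of cards from even positions that the permutation `g` puts in the top half. -/
def evenTop (m : ℕ) (g : Equiv.Perm (Fin (2 * m))) : ℕ :=
  (Finset.univ.filter (fun x : Fin (2 * m) => x.val % 2 = 0 ∧ (g x).val < m)).card

/-- The number of even positions in the top half. -/
def evenTop0 (m : ℕ) : ℕ :=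
  (Finset.univ.filter (fun z : Fin (2 * m) => z.val < m ∧ z.val % 2 = 0)).card

theorem card_filter_perm {α : Type} [Fintype α] (w : Equiv.Perm α) (P : α → Prop)
    [DecidablePred P] :
    (Finset.univ.filter (fun x : α => P (w x))).card = (Finset.univ.filter P).card := by
  apply Finset.card_bij (fun x _ => w x)
  · intro x hx
    simpa using hx
  · intro x _ y _ h
    exact w.injective h
  · intro z hz
    refine ⟨w.symm z, ?_, by simp⟩
    simpa using hz

theorem lt_pow_iff_div (k a : ℕ) (ha : a < 2 * 2 ^ k) : a < 2 ^ k ↔ (a / 2 ^ k) % 2 = 0 := by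
  have hpos : 0 < 2 ^ k := by positivity
  have h2 : a / 2 ^ k < 2 := by
    rw [Nat.div_lt_iff_lt_mul hpos]
    omega
  constructor
  · intro h
    rw [Nat.div_eq_of_lt h]
  · intro h
    have h0 : a / 2 ^ k = 0 := by
      generalize a / 2 ^ k = q at h h2
      omega
    rcases (Nat.div_eq_zero_iff).mp h0 with h3 | h3
    · omega
    · exact h3

theorem thorpPos_div_pow' (m : ℕ) (c : Fin m → Bool) (x : Fin (2 * m)) (j : ℕ) (hj : 1 ≤ j) :
    thorpPos m c x / 2 ^ j = x.val % m / 2 ^ (j - 1) := by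
  obtain ⟨s, rfl⟩ : ∃ s, j = s + 1 := ⟨j - 1, by omega⟩
  rw [thorpPos_div_pow]
  simp

theorem div_pow_eq (k : ℕ) (hk : 1 ≤ k) (c : Fin (2 ^ k) → Bool) (z : Fin (2 * 2 ^ k)) :
    (thorpPos (2 ^ k) c z / 2 ^ k) % 2 = (z.val / 2 ^ (k - 1)) % 2 := by
  rw [thorpPos_div_pow' (2 ^ k) c z k hk, bit_mod_pow k (k - 1) _ (by omega)]

/-- After exactly `2 * k` shuffles of `2 * 2 ^ k` cards, the number of even-position cards in
the top half is the same for every outcome of the coins. -/
theorem evenTop_thorpProd (k : ℕ) (hk : 1 ≤ k) (L : List (Fin (2 ^ k) → Bool))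
    (hL : L.length = 2 * k) :
    evenTop (2 ^ k) (thorpProd (2 ^ k) L) = evenTop0 (2 ^ k) := by
  -- split the list: the last `k` shuffles, the middle one, the first `k - 1`
  obtain ⟨L2, L', hLL, hL2⟩ : ∃ L2 L' : List (Fin (2 ^ k) → Bool),
      L = L2 ++ L' ∧ L2.length = k := by
    refine ⟨L.take k, L.drop k, (List.take_append_drop k L).symm, ?_⟩
    rw [List.length_take]
    omega
  have hL' : L'.length = k := by
    have := congrArg List.length hLL
    rw [List.length_append] at this
    omega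
  obtain ⟨c, L1, rfl⟩ : ∃ c L1, L' = c :: L1 := by
    cases L' with
    | nil => simp at hL'; omega
    | cons c L1 => exact ⟨c, L1, rfl⟩
  have hL1 : L1.length = k - 1 := by
    simp only [List.length_cons] at hL'
    omega
  subst hLL
  set w : Equiv.Perm (Fin (2 * 2 ^ k)) := thorpPerm (2 ^ k) c * thorpProd (2 ^ k) L1 with hw
  have hg : thorpProd (2 ^ k) (L2 ++ c :: L1) = thorpProd (2 ^ k) L2 * w := by
    rw [thorpProd_append]
    rfl
  rw [hg]
  unfold evenTop evenTop0
  rw [← card_filter_perm w (fun z : Fin (2 * 2 ^ k) => z.val < 2 ^ k ∧ z.val % 2 = 0)]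
  congr 1
  apply Finset.filter_congr
  intro x _
  -- (i) final top half iff `w x` even
  have h1 : ((thorpProd (2 ^ k) L2 * w) x).val < 2 ^ k ↔ (w x).val % 2 = 0 := by
    rw [lt_pow_iff_div k _ (Fin.isLt _)]
    have := thorpProd_bit k L2 (le_of_eq hL2) (w x)
    rw [hL2] at this
    simp only [Equiv.Perm.coe_mul, Function.comp_apply]
    rw [this]
  -- (ii) original position even iff `w x` in the top half
  have h2 : x.val % 2 = 0 ↔ (w x).val < 2 ^ k := by
    rw [lt_pow_iff_div k _ (Fin.isLt _)]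
    have hb := thorpProd_bit k L1 (by omega) x
    rw [hL1] at hb
    have hwx : (w x).val = thorpPos (2 ^ k) c (thorpProd (2 ^ k) L1 x) := by
      rw [hw]
      rfl
    rw [hwx, div_pow_eq k hk, hb]
  rw [h1, h2]

end Vale.Agent.H44
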