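import Vale.Agent.H44.ThorpUnif

namespace Vale.Agent.H44

open Finset

/-- If a law `μ` is carried by a set `A` containing at most two thirds of the points, then its
total variation distance from the uniform law is at least `1 / 3`. -/
theorem tvDist_lower {G : Type} [Fintype G] [DecidableEq G] (μ : G → ℝ)
    (hμ : ∑ g : G, μ g = 1) (A : Finset G) (hA : ∀ g, g ∉ A → μ g = 0)
    (hcard : 3 * A.card ≤ 2 * Fintype.card G) :
    (1 : ℝ) / 3 ≤ tvDist μ (unifLaw G) := by
  unfold tvDist unifLaw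
  have hne : Nonempty G := by
    by_contra h
    rw [not_nonempty_iff] at h
    simp at hμ
  have hNpos : (0 : ℝ) < (Fintype.card G : ℝ) := by exact_mod_cast Fintype.card_pos
  set N : ℝ := (Fintype.card G : ℝ) with hN
  have h1 : ∑ g : G, |μ g - 1 / N| = ∑ g ∈ A, |μ g - 1 / N| + ∑ g ∈ Aᶜ, |μ g - 1 / N| :=
    (Finset.sum_add_sum_compl A _).symm
  have h2 : ∑ g ∈ A, (μ g - 1 / N) ≤ ∑ g ∈ A, |μ g - 1 / N| :=
    Finset.sum_le_sum (fun g _ => le_abs_self _)
  have h3 : ∑ g ∈ Aᶜ, |μ g - 1 / N| = ∑ g ∈ Aᶜ, 1 / N := by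
    apply Finset.sum_congr rfl
    intro g hg
    rw [hA g (Finset.mem_compl.mp hg), zero_sub, abs_neg, abs_of_pos (by positivity)]
  have h4 : ∑ g ∈ A, μ g = 1 := by
    rw [← hμ]
    apply Finset.sum_subset (Finset.subset_univ A)
    intro g _ hg
    exact hA g hg
  have h5 : ∑ g ∈ A, (μ g - 1 / N) = 1 - (A.card : ℝ) / N := by
    rw [Finset.sum_sub_distrib, h4, Finset.sum_const, nsmul_eq_mul]
    ring
  have h6 : ∑ g ∈ Aᶜ, 1 / N = 1 - (A.card : ℝ) / N := by
    rw [Finset.sum_const, nsmul_eq_mul, Finset.card_compl,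
      Nat.cast_sub (Finset.card_le_univ A), ← hN]
    field_simp
  have h7 : (A.card : ℝ) / N ≤ 2 / 3 := by
    rw [div_le_iff₀ hNpos]
    have : (3 : ℝ) * (A.card : ℝ) ≤ 2 * N := by
      rw [hN]
      exact_mod_cast hcard
    linarith
  rw [h1, h3, h6]
  linarith

/-- One more convolution step cannot increase the distance from the uniform law. -/
theorem tvDist_groupConv_le {G : Type} [Group G] [Fintype G] (μ ν : G → ℝ)
    (hν0 : ∀ g, 0 ≤ ν g) (hν1 : ∑ g : G, ν g = 1) :
    tvDist (groupConv μ ν) (unifLaw G) ≤ tvDist μ (unifLaw G) := by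
  unfold tvDist
  apply mul_le_mul_of_nonneg_left _ (by norm_num)
  have hsum1 : ∀ g : G, ∑ h : G, ν (g * h⁻¹) = 1 := by
    intro g
    rw [← hν1]
    exact Fintype.sum_equiv ((Equiv.inv G).trans (Equiv.mulLeft g)) _ _ (fun h => rfl)
  have hsum2 : ∀ h : G, ∑ g : G, ν (g * h⁻¹) = 1 := by
    intro h
    rw [← hν1]
    exact Fintype.sum_equiv (Equiv.mulRight h⁻¹) _ _ (fun g => rfl)
  have key : ∀ g : G, groupConv μ ν g - unifLaw G g =
      ∑ h : G, (μ h - unifLaw G h) * ν (g * h⁻¹) := by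
    intro g
    unfold groupConv
    simp only [sub_mul, Finset.sum_sub_distrib]
    congr 1
    unfold unifLaw
    rw [← Finset.mul_sum, hsum1 g, mul_one]
  calc ∑ g : G, |groupConv μ ν g - unifLaw G g|
      = ∑ g : G, |∑ h : G, (μ h - unifLaw G h) * ν (g * h⁻¹)| := by simp only [key]
    _ ≤ ∑ g : G, ∑ h : G, |μ h - unifLaw G h| * ν (g * h⁻¹) := by
        apply Finset.sum_le_sum
        intro g _
        refine (Finset.abs_sum_le_sum_abs _ _).trans ?_
        apply Finset.sum_le_sum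
        intro h _
        rw [abs_mul, abs_of_nonneg (hν0 _)]
    _ = ∑ h : G, |μ h - unifLaw G h| * ∑ g : G, ν (g * h⁻¹) := by
        rw [Finset.sum_comm]
        simp only [Finset.mul_sum]
    _ = ∑ h : G, |μ h - unifLaw G h| := by
        apply Finset.sum_congr rfl
        intro h _
        rw [hsum2 h, mul_one]

/-- Main bound: for a deck of `2 * 2 ^ k` cards (`k ≥ 1`), the law after `t ≤ 2 * k` Thorp
shuffles is at total variation distance at least `1 / 3` from uniform. -/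
theorem thorp_tv_lower (k : ℕ) (hk : 1 ≤ k) (t : ℕ) (ht : t ≤ 2 * k) :
    (1 : ℝ) / 3 ≤ tvDist (thorpLaw (2 ^ k) t) (unifLaw (Equiv.Perm (Fin (2 * 2 ^ k)))) := by
  have hmono : ∀ s : ℕ,
      tvDist (thorpLaw (2 ^ k) (s + 1)) (unifLaw (Equiv.Perm (Fin (2 * 2 ^ k)))) ≤
        tvDist (thorpLaw (2 ^ k) s) (unifLaw (Equiv.Perm (Fin (2 * 2 ^ k)))) := by
    intro s
    rw [thorpLaw_succ]
    exact tvDist_groupConv_le _ _ (thorpStep_nonneg _) (sum_thorpStep _)
  have hanti : Antitone (fun s : ℕ =>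
      tvDist (thorpLaw (2 ^ k) s) (unifLaw (Equiv.Perm (Fin (2 * 2 ^ k))))) :=
    antitone_nat_of_succ_le hmono
  have h2k : (1 : ℝ) / 3 ≤
      tvDist (thorpLaw (2 ^ k) (2 * k)) (unifLaw (Equiv.Perm (Fin (2 * 2 ^ k)))) := by
    apply tvDist_lower _ (sum_thorpLaw _ _)
      (Finset.univ.filter (fun g : Equiv.Perm (Fin (2 * 2 ^ k)) =>
        evenTop (2 ^ k) g = evenTop0 (2 ^ k)))
    · intro g hg
      by_contra hne
      obtain ⟨L, hL, rfl⟩ := thorpLaw_support _ _ g hne
      apply hg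
      rw [mem_filter]
      exact ⟨mem_univ _, evenTop_thorpProd k hk L hL⟩
    · exact card_evenTop_le (2 ^ k) Nat.one_le_two_pow _
  exact h2k.trans (hanti ht)

end Vale.Agent.H44
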