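import Vale.Agent.H44.ThorpInv

namespace Vale.Agent.H44

open Finset

section Flip

variable {m r : ℕ}

/-- Indices `j` such that the cards `e j` and `o j` are sent by `g` to different halves. -/
def sepSet (e o : Fin r → Fin (2 * m)) (g : Equiv.Perm (Fin (2 * m))) : Finset (Fin r) :=
  Finset.univ.filter (fun j => ¬ ((g (e j)).val < m ↔ (g (o j)).val < m))

/-- A canonical element of a nonempty finset. -/
def pickOf (s : Finset (Fin r)) : Option (Fin r) :=
  if h : s.Nonempty then some (s.min' h) else none

theorem pickOf_mem {s : Finset (Fin r)} {j : Fin r} (h : pickOf s = some j) : j ∈ s := by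
  unfold pickOf at h
  split_ifs at h with hs
  have h' : s.min' hs = j := Option.some.inj h
  rw [← h']
  exact Finset.min'_mem s hs

theorem pickOf_of_nonempty {s : Finset (Fin r)} (h : s.Nonempty) :
    pickOf s = some (s.min' h) := by
  unfold pickOf
  rw [dif_pos h]

/-- Swap the destinations of the first separated pair of cards (if any). -/
def flipMove (e o : Fin r → Fin (2 * m)) (g : Equiv.Perm (Fin (2 * m))) :
    Equiv.Perm (Fin (2 * m)) :=
  match pickOf (sepSet e o g) with
  | some j => g * Equiv.swap (e j) (o j)
  | none => g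

theorem flipMove_of_some {e o : Fin r → Fin (2 * m)} {g : Equiv.Perm (Fin (2 * m))} {j : Fin r}
    (h : pickOf (sepSet e o g) = some j) : flipMove e o g = g * Equiv.swap (e j) (o j) := by
  unfold flipMove
  rw [h]

theorem flipMove_of_none {e o : Fin r → Fin (2 * m)} {g : Equiv.Perm (Fin (2 * m))}
    (h : pickOf (sepSet e o g) = none) : flipMove e o g = g := by
  unfold flipMove
  rw [h]

theorem sepSet_swap (e o : Fin r → Fin (2 * m)) (he : ∀ j, (e j).val % 2 = 0)
    (ho : ∀ j, (o j).val % 2 = 1) (hei : Function.Injective e) (hoi : Function.Injective o)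
    (g : Equiv.Perm (Fin (2 * m))) (j : Fin r) :
    sepSet e o (g * Equiv.swap (e j) (o j)) = sepSet e o g := by
  ext i
  rw [sepSet, sepSet, mem_filter, mem_filter]
  simp only [mem_univ, true_and, Equiv.Perm.coe_mul, Function.comp_apply]
  by_cases hij : i = j
  · subst hij
    rw [Equiv.swap_apply_left, Equiv.swap_apply_right]
    tauto
  · have h1 : e i ≠ e j := fun h => hij (hei h)
    have h2 : e i ≠ o j := by
      intro h
      have h3 := he i
      have h4 := ho j
      rw [h] at h3
      omega
    have h3 : o i ≠ e j := by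
      intro h
      have h3 := ho i
      have h4 := he j
      rw [h] at h3
      omega
    have h4 : o i ≠ o j := fun h => hij (hoi h)
    rw [Equiv.swap_apply_of_ne_of_ne h1 h2, Equiv.swap_apply_of_ne_of_ne h3 h4]

theorem flipMove_flipMove (e o : Fin r → Fin (2 * m)) (he : ∀ j, (e j).val % 2 = 0)
    (ho : ∀ j, (o j).val % 2 = 1) (hei : Function.Injective e) (hoi : Function.Injective o)
    (g : Equiv.Perm (Fin (2 * m))) : flipMove e o (flipMove e o g) = g := by
  cases h : pickOf (sepSet e o g) with
  | none =>
    rw [flipMove_of_none h, flipMove_of_none h]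
  | some j =>
    rw [flipMove_of_some h]
    have h' : pickOf (sepSet e o (g * Equiv.swap (e j) (o j))) = some j := by
      rw [sepSet_swap e o he ho hei hoi]
      exact h
    rw [flipMove_of_some h', mul_assoc, Equiv.swap_mul_self, mul_one]

theorem evenTop_swap_ne (g : Equiv.Perm (Fin (2 * m))) (e o : Fin (2 * m))
    (hee : e.val % 2 = 0) (hoo : o.val % 2 = 1)
    (hsep : ¬ ((g e).val < m ↔ (g o).val < m)) :
    evenTop m (g * Equiv.swap e o) ≠ evenTop m g := by
  unfold evenTop
  by_cases hge : (g e).val < m
  · have hgo : ¬ (g o).val < m := fun h => hsep ⟨fun _ => h, fun _ => hge⟩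
    have hset : (Finset.univ.filter (fun x : Fin (2 * m) =>
        x.val % 2 = 0 ∧ ((g * Equiv.swap e o) x).val < m)) =
        (Finset.univ.filter (fun x : Fin (2 * m) => x.val % 2 = 0 ∧ (g x).val < m)).erase e := by
      ext x
      rw [mem_erase, mem_filter, mem_filter]
      simp only [mem_univ, true_and, Equiv.Perm.coe_mul, Function.comp_apply]
      by_cases hx : x = e
      · subst hx
        rw [Equiv.swap_apply_left]
        tauto
      · by_cases hxe : x.val % 2 = 0
        · have hxo : x ≠ o := by
            intro h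
            rw [h] at hxe
            omega
          rw [Equiv.swap_apply_of_ne_of_ne hx hxo]
          tauto
        · tauto
    have hmem : e ∈ (Finset.univ.filter (fun x : Fin (2 * m) => x.val % 2 = 0 ∧ (g x).val < m)) := by
      simp [hee, hge]
    rw [hset, Finset.card_erase_of_mem hmem]
    have hpos := Finset.card_pos.mpr ⟨e, hmem⟩
    omega
  · have hgo : (g o).val < m := by
      by_contra h
      exact hsep ⟨fun h' => absurd h' hge, fun h' => absurd h' h⟩
    have hset : (Finset.univ.filter (fun x : Fin (2 * m) =>
        x.val % 2 = 0 ∧ ((g * Equiv.swap e o) x).val < m)) =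
        insert e (Finset.univ.filter (fun x : Fin (2 * m) => x.val % 2 = 0 ∧ (g x).val < m)) := by
      ext x
      rw [mem_insert, mem_filter, mem_filter]
      simp only [mem_univ, true_and, Equiv.Perm.coe_mul, Function.comp_apply]
      by_cases hx : x = e
      · subst hx
        rw [Equiv.swap_apply_left]
        tauto
      · by_cases hxe : x.val % 2 = 0
        · have hxo : x ≠ o := by
            intro h
            rw [h] at hxe
            omega
          rw [Equiv.swap_apply_of_ne_of_ne hx hxo]
          tauto
        · tauto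
    have hmem : e ∉ (Finset.univ.filter (fun x : Fin (2 * m) => x.val % 2 = 0 ∧ (g x).val < m)) := by
      simp [hge]
    rw [hset, Finset.card_insert_of_notMem hmem]
    omega

theorem card_sep_le (e o : Fin r → Fin (2 * m)) (he : ∀ j, (e j).val % 2 = 0)
    (ho : ∀ j, (o j).val % 2 = 1) (hei : Function.Injective e) (hoi : Function.Injective o)
    (K0 : ℕ) :
    (Finset.univ.filter (fun g : Equiv.Perm (Fin (2 * m)) =>
        evenTop m g = K0 ∧ (sepSet e o g).Nonempty)).card ≤
      (Finset.univ.filter (fun g : Equiv.Perm (Fin (2 * m)) => evenTop m g ≠ K0)).card := by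
  apply Finset.card_le_card_of_injOn (flipMove e o)
  · intro g hg
    rw [mem_coe, mem_filter] at hg ⊢
    simp only [mem_univ, true_and] at hg ⊢
    obtain ⟨hK, hne⟩ := hg
    have hp := pickOf_of_nonempty hne
    have hj := pickOf_mem hp
    rw [flipMove_of_some hp]
    simp only [sepSet, mem_filter, mem_univ, true_and] at hj
    rw [← hK]
    exact evenTop_swap_ne g _ _ (he _) (ho _) hj
  · intro a _ b _ hab
    have := congrArg (flipMove e o) hab
    rwa [flipMove_flipMove e o he ho hei hoi, flipMove_flipMove e o he ho hei hoi] at this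

end Flip

section Matchings

variable (m : ℕ)

/-- First matching: even card `2 j`, odd card `2 j + 1`. -/
def evenAt (j : Fin m) : Fin (2 * m) := ⟨2 * j.val, by have := j.isLt; omega⟩

def oddAt (j : Fin m) : Fin (2 * m) := ⟨2 * j.val + 1, by have := j.isLt; omega⟩

/-- Second matching: even card `2 j`, odd card `2 j + 3`. -/
def evenAt' (j : Fin (m - 1)) : Fin (2 * m) := ⟨2 * j.val, by have := j.isLt; omega⟩

def oddAt' (j : Fin (m - 1)) : Fin (2 * m) := ⟨2 * j.val + 3, by have := j.isLt; omega⟩

theorem evenAt_inj : Function.Injective (evenAt m) := by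
  intro i j h
  have := congrArg Fin.val h
  simp only [evenAt] at this
  exact Fin.ext (by omega)

theorem oddAt_inj : Function.Injective (oddAt m) := by
  intro i j h
  have := congrArg Fin.val h
  simp only [oddAt] at this
  exact Fin.ext (by omega)

theorem evenAt'_inj : Function.Injective (evenAt' m) := by
  intro i j h
  have := congrArg Fin.val h
  simp only [evenAt'] at this
  exact Fin.ext (by omega)

theorem oddAt'_inj : Function.Injective (oddAt' m) := by
  intro i j h
  have := congrArg Fin.val h
  simp only [oddAt'] at this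
  exact Fin.ext (by omega)

/-- A permutation cannot be unseparated for both matchings. -/
theorem not_both_stuck (hm : 1 ≤ m) (g : Equiv.Perm (Fin (2 * m)))
    (h1 : sepSet (evenAt m) (oddAt m) g = ∅) (h2 : sepSet (evenAt' m) (oddAt' m) g = ∅) :
    False := by
  have h1' : ∀ j (hj : j < m), ((g ⟨2 * j, by omega⟩).val < m ↔ (g ⟨2 * j + 1, by omega⟩).val < m) := by
    intro j hj
    have := Finset.filter_eq_empty_iff.mp h1 (Finset.mem_univ (⟨j, hj⟩ : Fin m))
    simpa [evenAt, oddAt] using this
  have h2' : ∀ j (hj : j < m - 1),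
      ((g ⟨2 * j, by omega⟩).val < m ↔ (g ⟨2 * j + 3, by omega⟩).val < m) := by
    intro j hj
    have := Finset.filter_eq_empty_iff.mp h2 (Finset.mem_univ (⟨j, hj⟩ : Fin (m - 1)))
    simpa [evenAt', oddAt'] using this
  have key : ∀ j (hj : j < m), ((g ⟨2 * j, by omega⟩).val < m ↔ (g ⟨0, by omega⟩).val < m) ∧
      ((g ⟨2 * j + 1, by omega⟩).val < m ↔ (g ⟨0, by omega⟩).val < m) := by
    intro j
    induction j with
    | zero =>
      intro hj
      exact ⟨Iff.rfl, (h1' 0 hj).symm⟩
    | succ j ih =>
      intro hj
      have ihj := ih (by omega)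
      have a := h2' j (by omega)
      have b := h1' (j + 1) hj
      have hodd : (g ⟨2 * (j + 1) + 1, by omega⟩).val < m ↔ (g ⟨0, by omega⟩).val < m :=
        a.symm.trans ihj.1
      exact ⟨b.trans hodd, hodd⟩
  have all : ∀ x : Fin (2 * m), ((g x).val < m ↔ (g ⟨0, by omega⟩).val < m) := by
    intro x
    have hx := x.isLt
    rcases Nat.even_or_odd' x.val with ⟨j, hj | hj⟩
    · have := (key j (by omega)).1
      have hx' : x = ⟨2 * j, by omega⟩ := Fin.ext hj
      rw [hx']
      exact this
    · have := (key j (by omega)).2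
      have hx' : x = ⟨2 * j + 1, by omega⟩ := Fin.ext hj
      rw [hx']
      exact this
  obtain ⟨x, hx⟩ := g.surjective (⟨0, by omega⟩ : Fin (2 * m))
  obtain ⟨y, hy⟩ := g.surjective (⟨m, by omega⟩ : Fin (2 * m))
  have hxt : (g x).val < m := by rw [hx]; exact hm
  have hyt : ¬ (g y).val < m := by rw [hy]; simp
  exact hyt ((all y).mpr ((all x).mp hxt))

/-- Under the uniform law, the event that the number of even cards in the top half takes a
prescribed value has probability at most `2 / 3`. -/
theorem card_evenTop_le (hm : 1 ≤ m) (K0 : ℕ) :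
    3 * (Finset.univ.filter (fun g : Equiv.Perm (Fin (2 * m)) => evenTop m g = K0)).card ≤
      2 * Fintype.card (Equiv.Perm (Fin (2 * m))) := by
  have hsplit : (Finset.univ.filter (fun g : Equiv.Perm (Fin (2 * m)) => evenTop m g = K0)).card +
      (Finset.univ.filter (fun g : Equiv.Perm (Fin (2 * m)) => evenTop m g ≠ K0)).card =
      (Finset.univ : Finset (Equiv.Perm (Fin (2 * m)))).card :=
    Finset.card_filter_add_card_filter_not
      (s := (Finset.univ : Finset (Equiv.Perm (Fin (2 * m))))) (fun g => evenTop m g = K0)
  have hsplit2 := Finset.card_filter_add_card_filter_not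
    (s := (Finset.univ.filter (fun g : Equiv.Perm (Fin (2 * m)) => evenTop m g = K0)))
    (fun g => (sepSet (evenAt m) (oddAt m) g).Nonempty)
  rw [Finset.filter_filter, Finset.filter_filter] at hsplit2
  have hb1 := card_sep_le (evenAt m) (oddAt m) (fun j => by simp [evenAt])
    (fun j => by simp [oddAt]) (evenAt_inj m) (oddAt_inj m) K0
  have hb2 := card_sep_le (evenAt' m) (oddAt' m) (fun j => by simp [evenAt'])
    (fun j => by simp [oddAt']) (evenAt'_inj m) (oddAt'_inj m) K0
  have hsub : (Finset.univ.filter (fun g : Equiv.Perm (Fin (2 * m)) =>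
      evenTop m g = K0 ∧ ¬ (sepSet (evenAt m) (oddAt m) g).Nonempty)).card ≤
      (Finset.univ.filter (fun g : Equiv.Perm (Fin (2 * m)) =>
        evenTop m g = K0 ∧ (sepSet (evenAt' m) (oddAt' m) g).Nonempty)).card := by
    apply Finset.card_le_card
    intro g hg
    rw [mem_filter] at hg ⊢
    refine ⟨mem_univ _, hg.2.1, ?_⟩
    by_contra hne
    exact not_both_stuck m hm g (Finset.not_nonempty_iff_eq_empty.mp hg.2.2)
      (Finset.not_nonempty_iff_eq_empty.mp hne)
  rw [Finset.card_univ] at hsplit
  omega

end Matchings

end Vale.Agent.H44
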